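import Vale.Agent.Results.P100.PlanarAndSingularWeights

/-!
# P100: the Henon-Lane-Emden system in the plane and for weights at most -2, plain form

The statement of the hand-in `PlanarAndSingularWeights` with the notion of a positive entire
solution written out: there are no `u, v` on `ℝ^n` that are twice continuously differentiable
off the origin, continuous and positive everywhere, and satisfy `-Δ u = |x|^A v^p` and
`-Δ v = |x|^B u^q` at every `x ≠ 0`, when `n = 2`, or `A ≤ -2`, or `B ≤ -2` (any `n ≥ 2`, any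
real `p, q`).
-/

namespace Vale.Agent.Results.P100.PlanarAndSingularPlain

open Laplacian

theorem result (n : ℕ) (hn : 2 ≤ n) (p q A B : ℝ) (h : n = 2 ∨ A ≤ -2 ∨ B ≤ -2) :
    ¬ ∃ u v : EuclideanSpace ℝ (Fin n) → ℝ,
      ContDiffOn ℝ 2 u {0}ᶜ ∧ ContDiffOn ℝ 2 v {0}ᶜ ∧ Continuous u ∧ Continuous v ∧
      (∀ x, 0 < u x) ∧ (∀ x, 0 < v x) ∧
      ∀ x, x ≠ 0 → -(Δ u x) = ‖x‖ ^ A * (v x) ^ p ∧ -(Δ v x) = ‖x‖ ^ B * (u x) ^ q :=
  Vale.Agent.Results.P100.PlanarAndSingularWeights.result n hn p q A B h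

end Vale.Agent.Results.P100.PlanarAndSingularPlain
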