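import Vale.Agent.Helper13.MaxPrinciple

/-!
# P100: the Henon-Lane-Emden system in the plane and for weights at most -2

For the system `-Δ u = |x|^A v^p`, `-Δ v = |x|^B u^q` on `ℝ^n \ {0}` we prove that there is no
positive entire solution (in the sense of the problem: `u, v` of class `C^2` off the origin,
continuous and positive on all of `ℝ^n`)

* when `n = 2`, for all real `p, q, A, B`;
* in every dimension `n ≥ 2`, whenever `A ≤ -2` or `B ≤ -2`, for all real `p, q`.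

The proof is by the minimum principle on annuli, with explicit log-quadratic radial barriers.
-/

namespace Vale.Agent.Results.P100.PlanarAndSingularWeights

open Laplacian

/-- `(u, v)` is a positive entire solution of the Henon-Lane-Emden system
`-Δ u = |x|^A v^p`, `-Δ v = |x|^B u^q` in `ℝ^n \ {0}`: both functions are twice continuously
differentiable on `ℝ^n \ {0}`, continuous and positive on all of `ℝ^n`, and satisfy both
equations at every `x ≠ 0`. -/
def IsPositiveEntireSolution (n : ℕ) (p q A B : ℝ)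
    (u v : EuclideanSpace ℝ (Fin n) → ℝ) : Prop :=
  ContDiffOn ℝ 2 u {0}ᶜ ∧ ContDiffOn ℝ 2 v {0}ᶜ ∧ Continuous u ∧ Continuous v ∧
  (∀ x, 0 < u x) ∧ (∀ x, 0 < v x) ∧
  ∀ x, x ≠ 0 → -(Δ u x) = ‖x‖ ^ A * (v x) ^ p ∧ -(Δ v x) = ‖x‖ ^ B * (u x) ^ q

/-- auxiliary: a singular weight `A ≤ -2` in the first equation is impossible -/
theorem singular_aux (n : ℕ) (hn : 2 ≤ n) (p A : ℝ) (hA : A ≤ -2)
    (u v : EuclideanSpace ℝ (Fin n) → ℝ) (hu : ContDiffOn ℝ 2 u {0}ᶜ) (hcu : Continuous u)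
    (hcv : Continuous v) (hpu : ∀ x, 0 < u x) (hpv : ∀ x, 0 < v x)
    (heq : ∀ x, x ≠ 0 → -(Δ u x) = ‖x‖ ^ A * (v x) ^ p) : False := by
  have hcont : Continuous fun x => (v x) ^ p :=
    hcv.rpow_const (fun x => Or.inl (hpv x).ne')
  obtain ⟨x₀, -, hx₀⟩ := (isCompact_closedBall (0 : EuclideanSpace ℝ (Fin n)) 1).exists_isMinOn
    ⟨0, by simp⟩ hcont.continuousOn
  have hc : 0 < (v x₀) ^ p := Real.rpow_pos_of_pos (hpv x₀) p
  refine Vale.Agent.Helper13.no_pos_singular_superharmonic (EuclideanSpace.basisFun (Fin n) ℝ)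
    (by simpa using hn) hu hcu (fun x _ => hpu x) hc ?_
  intro x hx0 hx1
  rw [heq x hx0]
  have hxpos : 0 < ‖x‖ := norm_pos_iff.2 hx0
  have h1 : (v x₀) ^ p ≤ (v x) ^ p :=
    hx₀ (by simpa [Metric.mem_closedBall, dist_zero_right] using hx1)
  have h2 : ‖x‖ ^ (-2 : ℝ) ≤ ‖x‖ ^ A := Real.rpow_le_rpow_of_exponent_ge hxpos hx1 hA
  have h3 : ‖x‖ ^ (-2 : ℝ) = (‖x‖ ^ 2)⁻¹ := by
    rw [Real.rpow_neg hxpos.le, Real.rpow_two]
  rw [h3] at h2
  have h4 : (v x₀) ^ p / ‖x‖ ^ 2 = (‖x‖ ^ 2)⁻¹ * (v x₀) ^ p := by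
    rw [div_eq_mul_inv, mul_comm]
  rw [h4]
  exact mul_le_mul h2 h1 hc.le (Real.rpow_nonneg hxpos.le A)

/-- **Henon-Lane-Emden system, planar case and weights at most `-2`.**
Let `n ≥ 2` and let `p, q, A, B` be arbitrary real numbers. If `n = 2`, or `A ≤ -2`, or `B ≤ -2`,
then the system `-Δ u = |x|^A v^p`, `-Δ v = |x|^B u^q` in `ℝ^n \ {0}` has no positive entire
solution. -/
theorem result (n : ℕ) (hn : 2 ≤ n) (p q A B : ℝ) (h : n = 2 ∨ A ≤ -2 ∨ B ≤ -2) :
    ¬ ∃ u v, IsPositiveEntireSolution n p q A B u v := by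
  rintro ⟨u, v, hu, hv, hcu, hcv, hpu, hpv, heq⟩
  rcases h with h2 | hA | hB
  · refine Vale.Agent.Helper13.no_pos_superharmonic_punctured_plane
      (EuclideanSpace.basisFun (Fin n) ℝ) (by simpa using h2) hu (fun x _ => hpu x) ?_
    intro x hx0
    have h1 := (heq x hx0).1
    have hxpos : 0 < ‖x‖ := norm_pos_iff.2 hx0
    have h3 : 0 < ‖x‖ ^ A * (v x) ^ p :=
      mul_pos (Real.rpow_pos_of_pos hxpos A) (Real.rpow_pos_of_pos (hpv x) p)
    linarith
  · exact singular_aux n hn p A hA u v hu hcu hcv hpu hpv (fun x hx => (heq x hx).1)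
  · exact singular_aux n hn q B hB v u hv hcv hcu hpv hpu (fun x hx => (heq x hx).2)

end Vale.Agent.Results.P100.PlanarAndSingularWeights
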